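import Vale.Agent.P007.Defs

/-! An open set of lattices without bounded non-scalar diagonal endomorphisms. -/

namespace Vale.Agent.P007

open Matrix MeasureTheory Topology Filter

variable {n : ℕ}

instance G.lc : LocallyCompactSpace (G n) :=
  haveI : LocallyCompactSpace (Matrix (Fin n) (Fin n) ℝ) :=
    inferInstanceAs (LocallyCompactSpace (Fin n → Fin n → ℝ))
  Matrix.SpecialLinearGroup.isClosedEmbedding_val.locallyCompactSpace

instance G.sc : SecondCountableTopology (G n) :=
  haveI : SecondCountableTopology (Matrix (Fin n) (Fin n) ℝ) :=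
    inferInstanceAs (SecondCountableTopology (Fin n → Fin n → ℝ))
  Matrix.SpecialLinearGroup.isClosedEmbedding_val.isEmbedding.secondCountableTopology

instance Gam.closed : IsClosed (Gam n : Set (G n)) :=
  (Topology.IsClosedEmbedding.specialLinearGroup_map (n := Fin n) (f := Int.castRingHom ℝ)
    Int.isClosedEmbedding_coe_real).isClosed_range

theorem mk_open : IsOpenQuotientMap (mk : G n → X n) := MulAction.isOpenQuotientMap_quotientMk

instance X.t2 : T2Space (X n) := t2Space_quotient_mulAction_of_properSMul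

instance X.lc : LocallyCompactSpace (X n) := mk_open.locallyCompactSpace

instance X.sc : SecondCountableTopology (X n) := ContinuousConstSMul.secondCountableTopology

instance X.borel : BorelSpace (X n) := ⟨rfl⟩

theorem act_mk (a g : G n) : act a (mk g) = mk (g * a) := rfl

theorem act_cont (a : G n) : Continuous (act a) := by
  rw [← mk_open.continuous_comp_iff]
  exact mk_open.continuous.comp (continuous_mul_const a)

theorem haar_pos {m : Measure (X n)} (hm : IsHaarProb m) {U : Set (X n)} (hU : IsOpen U)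
    (hne : U.Nonempty) : m U ≠ 0 := by
  intro h0
  obtain ⟨x, hx⟩ := hne
  obtain ⟨g, rfl⟩ := mk_open.surjective x
  obtain ⟨T, hT, he⟩ := TopologicalSpace.isOpen_iUnion_countable (fun a : G n => act a ⁻¹' U)
    fun a => hU.preimage (act_cont a)
  have h1 : ⋃ a : G n, act a ⁻¹' U = Set.univ := by
    refine Set.eq_univ_of_forall fun y => ?_
    obtain ⟨h, rfl⟩ := mk_open.surjective y
    exact Set.mem_iUnion.2 ⟨h⁻¹ * g, by simpa [act_mk] using hx⟩
  have h2 : m (⋃ a ∈ T, act a ⁻¹' U) = 0 := (measure_biUnion_null_iff hT).2 fun a _ => by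
    rw [← Measure.map_apply (act_cont a).measurable hU.measurableSet, hm.2, h0]
  rw [he, h1, hm.1.measure_univ] at h2
  exact one_ne_zero h2

theorem mem_lat {g : G n} {v : Fin n → ℝ} :
    v ∈ lat (mk g) ↔ ∃ k : Fin n → ℤ, v = (fun i => (k i : ℝ)) ᵥ* (g : Matrix _ _ ℝ) := by
  refine ⟨?_, fun h => ⟨g, rfl, h⟩⟩
  rintro ⟨h, hh, k, rfl⟩
  obtain ⟨⟨_, γ, rfl⟩, rfl⟩ := Quotient.exact hh
  refine ⟨k ᵥ* γ.1, ?_⟩
  have e : (fun i => ((k ᵥ* γ.1) i : ℝ)) =
      (fun i => (k i : ℝ)) ᵥ* γ.1.map (Int.castRingHom ℝ) := by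
    funext i
    simp [vecMul, dotProduct]
  rw [e, vecMul_vecMul]
  rfl

/-- matrices that do not diagonalise `M` -/
def avW (M : Matrix (Fin n) (Fin n) ℝ) : Set (G n) :=
  {g | (∃ a b, a ≠ b ∧ ((g⁻¹).1 * M * g.1) a b ≠ 0) ∨
    ∃ c : ℝ, M = diagonal fun _ => c}

theorem av_inv : Continuous fun g : G n => (g⁻¹).1 :=
  continuous_subtype_val.comp (continuous_inv (G := G n))

theorem av_cont (M : Matrix (Fin n) (Fin n) ℝ) (a b : Fin n) :
    Continuous fun g : G n => ((g⁻¹).1 * M * g.1) a b :=
  ((av_inv.matrix_mul continuous_const).matrix_mul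
    continuous_subtype_val).matrix_elem a b

theorem avW_open (M : Matrix (Fin n) (Fin n) ℝ) : IsOpen (avW M) := by
  have h : IsOpen {g : G n | ∃ a b, a ≠ b ∧ ((g⁻¹).1 * M * g.1) a b ≠ 0} := by
    simp only [Set.ofPred_exists]
    exact isOpen_iUnion fun a => isOpen_iUnion fun b =>
      isOpen_const.inter (isOpen_ne_fun (av_cont M a b) continuous_const)
  exact h.union isOpen_const

theorem av_conj (g : G n) (M : Matrix (Fin n) (Fin n) ℝ) :
    g.1 * ((g⁻¹).1 * M * g.1) * (g⁻¹).1 = M := by
  have h1 : g.1 * (g⁻¹).1 = 1 := by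
    rw [← Matrix.SpecialLinearGroup.coe_mul, mul_inv_cancel, Matrix.SpecialLinearGroup.coe_one]
  simp only [← Matrix.mul_assoc, h1, Matrix.one_mul]
  rw [Matrix.mul_assoc, h1, Matrix.mul_one]

theorem avW_dense (M : Matrix (Fin n) (Fin n) ℝ) : Dense (avW M) := by
  intro g
  by_cases hg : g ∈ avW M
  · exact subset_closure hg
  simp only [avW, Set.mem_ofPred_eq, not_or, not_exists, not_and, not_not] at hg
  set D : Matrix (Fin n) (Fin n) ℝ := (g⁻¹).1 * M * g.1 with hD
  obtain ⟨a, b, hab⟩ : ∃ a b, D a a ≠ D b b := by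
    by_contra hn
    push Not at hn
    rcases Nat.eq_zero_or_pos n with rfl | h0
    · exact hg.2 0 (Subsingleton.elim _ _)
    · refine hg.2 (D ⟨0, h0⟩ ⟨0, h0⟩) ?_
      have e : D = D ⟨0, h0⟩ ⟨0, h0⟩ • (1 : Matrix _ _ ℝ) := by
        ext i j
        by_cases h : i = j
        · subst h
          simp [hn i ⟨0, h0⟩]
        · simp [h, hg.1 i j h]
      have h1 := av_conj g M
      rw [← hD, e, Matrix.mul_smul, Matrix.mul_one, Matrix.smul_mul,
        ← Matrix.SpecialLinearGroup.coe_mul, mul_inv_cancel] at h1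
      rw [← h1]
      simp [Matrix.smul_one_eq_diagonal]
  have hne : a ≠ b := fun h => hab (by rw [h])
  have hc : Continuous fun t : ℝ => g * Matrix.SpecialLinearGroup.transvection hne t :=
    continuous_const.mul (Continuous.subtype_mk
      (continuous_const.add (continuous_matrix fun i j => by
        simp only [single_apply]
        split_ifs
        · exact continuous_id
        · exact continuous_const)) _)
  have ht : Tendsto (fun t : ℝ => g * Matrix.SpecialLinearGroup.transvection hne t) (𝓝[≠] 0)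
      (𝓝 g) := by
    have := hc.tendsto 0
    rw [Matrix.SpecialLinearGroup.transvection_coeff_zero, mul_one] at this
    exact this.mono_left nhdsWithin_le_nhds
  refine mem_closure_of_tendsto ht ?_
  filter_upwards [self_mem_nhdsWithin] with t ht0
  refine Or.inl ⟨a, b, hne, ?_⟩
  have e : ((g * Matrix.SpecialLinearGroup.transvection hne t)⁻¹).1 * M *
      (g * Matrix.SpecialLinearGroup.transvection hne t).1 =
      transvection a b (-t) * D * transvection a b t := by
    rw [_root_.mul_inv_rev, Matrix.SpecialLinearGroup.transvection_inv,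
      Matrix.SpecialLinearGroup.coe_mul, Matrix.SpecialLinearGroup.coe_mul, hD]
    simp only [Matrix.mul_assoc]
    rfl
  rw [e, mul_transvection_apply_same, transvection_mul_apply_same, transvection_mul_apply_same,
    hg.1 a b hne, hg.1 b a hne.symm]
  have : t * (D a a - D b b) ≠ 0 := mul_ne_zero ht0 (sub_ne_zero.2 hab)
  intro h
  apply this
  linear_combination h

theorem exists_avoid (n : ℕ) (C : ℝ) : ∃ U : Set (G n), IsOpen U ∧ U.Nonempty ∧
    ∀ g ∈ U, ∀ (M : Matrix (Fin n) (Fin n) ℤ) (d : Fin n → ℝ), (∀ j, |d j| ≤ C) →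
      M.map (Int.castRingHom ℝ) * g = g * diagonal d → ∀ j, d j = M j j := by
  set V : Set (G n) := ⋂ i, ⋂ j, {g | |g i j| < 2 ∧ |g⁻¹ i j| < 2} with hV
  have hVo : IsOpen V := isOpen_iInter_of_finite fun i => isOpen_iInter_of_finite fun j =>
    (isOpen_lt (continuous_subtype_val.matrix_elem i j).abs continuous_const).inter
      (isOpen_lt (av_inv.matrix_elem i j).abs
        continuous_const)
  have hV1 : (1 : G n) ∈ V := by
    simp only [hV, Set.mem_iInter, Set.mem_ofPred_eq, inv_one, and_self]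
    intro i j
    rw [Matrix.SpecialLinearGroup.coe_one, one_apply]
    split_ifs <;> norm_num
  set N : ℤ := ⌈n * (2 * C * 2)⌉
  set F : Set (Matrix (Fin n) (Fin n) ℤ) :=
    Set.pi Set.univ fun _ => Set.pi Set.univ fun _ => Set.Icc (-N) N
  have hF : F.Finite := Set.Finite.pi fun _ => Set.Finite.pi fun _ => Set.finite_Icc _ _
  refine ⟨V ∩ ⋂ M ∈ F, avW (M.map (Int.castRingHom ℝ)),
    hVo.inter (hF.isOpen_biInter fun M _ => avW_open _),
    (dense_biInter_of_isOpen (fun M _ => avW_open _) hF.countable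
      fun M _ => avW_dense _).inter_open_nonempty V hVo ⟨1, hV1⟩, ?_⟩
  rintro g ⟨hg, hW⟩ M d hd he
  simp only [hV, Set.mem_iInter, Set.mem_ofPred_eq] at hg
  have h1 : (g⁻¹).1 * M.map (Int.castRingHom ℝ) * g.1 = diagonal d := by
    rw [Matrix.mul_assoc, he, ← Matrix.mul_assoc, ← Matrix.SpecialLinearGroup.coe_mul,
      inv_mul_cancel, Matrix.SpecialLinearGroup.coe_one, Matrix.one_mul]
  have h2 := av_conj g (M.map (Int.castRingHom ℝ))
  rw [h1] at h2
  have hM : M ∈ F := fun i _ j _ => by
    have h3 : |(M i j : ℝ)| ≤ N := by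
      have h4 : (M i j : ℝ) = ∑ k, g i k * d k * g⁻¹ k j := by
        have := congrFun (congrFun h2 i) j
        rw [mul_apply] at this
        simpa only [mul_diagonal, map_apply, eq_intCast] using this.symm
      rw [h4]
      refine (Finset.abs_sum_le_sum_abs _ _).trans (le_trans ?_ (Int.le_ceil _))
      refine (Finset.sum_le_card_nsmul _ _ (2 * C * 2) fun k _ => ?_).trans (by simp)
      rw [abs_mul, abs_mul]
      have := (abs_nonneg _).trans (hd k)
      exact mul_le_mul (mul_le_mul (hg i k).1.le (hd k) (abs_nonneg _) zero_le_two) (hg k j).2.le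
        (abs_nonneg _) (by positivity)
    exact abs_le.1 (by exact_mod_cast h3)
  rcases Set.mem_iInter₂.1 hW M hM with ⟨a, b, hab, h3⟩ | ⟨c, hc⟩
  · rw [h1, diagonal_apply_ne _ hab] at h3
    exact absurd rfl h3
  · intro j
    have h3 := congrFun (congrFun hc j) j
    rw [hc, ← Matrix.smul_one_eq_diagonal, Matrix.mul_smul, Matrix.mul_one, Matrix.smul_mul,
      ← Matrix.SpecialLinearGroup.coe_mul, inv_mul_cancel] at h1
    have h4 := congrFun (congrFun h1 j) j
    simp at h3 h4
    rw [h3, h4]

end Vale.Agent.P007
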