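import Vale.Agent.P007.Defs

/-! Totally real fields of composite degree containing a fixed subfield. -/

namespace Vale.Agent.P007

open NumberField Module Polynomial

theorem exists_cyc {k : ℕ} (hk : 0 < k) (B : ℕ) : ∃ p : ℕ, p.Prime ∧ B < p ∧
    ∃ (E : Type) (_ : Field E) (_ : NumberField E), IsGalois ℚ E ∧ finrank ℚ E = k ∧
      IsTotallyReal E ∧ discr E ∣ (p : ℤ) ^ (p - 2) := by
  obtain ⟨p, hp, hB, hm⟩ := Nat.exists_prime_gt_modEq_one (k := 2 * k) B (by omega)
  obtain ⟨t, ht⟩ := (Nat.modEq_iff_dvd' hp.one_le).1 hm.symm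
  have := Fact.mk hp
  obtain ⟨L, _, _, _⟩ : ∃ (L : Type) (_ : Field L) (_ : NumberField L),
      IsCyclotomicExtension {p} ℚ L :=
    ⟨CyclotomicField p ℚ, inferInstance, inferInstance, CyclotomicField.isCyclotomicExtension p ℚ⟩
  have : IsAbelianGalois ℚ L := IsCyclotomicExtension.isAbelianGalois {p} ℚ L
  let e := IsCyclotomicExtension.autEquivPow L (cyclotomic.irreducible_rat hp.pos)
  let A := (powMonoidHom (2 * t) : (ZMod p)ˣ →* (ZMod p)ˣ).ker
  have hcard : Nat.card (ZMod p)ˣ = p - 1 := by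
    rw [Nat.card_eq_fintype_card, ZMod.card_units]
  have hA : Nat.card A = 2 * t := by
    rw [IsCyclic.card_powMonoidHom_ker, hcard, ht]
    exact Nat.gcd_eq_right ⟨k, by ring⟩
  let H : Subgroup Gal(L/ℚ) := A.map e.symm.toMonoidHom
  have hH : Nat.card H = 2 * t := by
    rw [← hA]
    exact Subgroup.card_map_of_injective e.symm.injective
  have ht0 : 0 < t := by
    rcases Nat.eq_zero_or_pos t with h | h
    · have := hp.two_le
      rw [h] at ht
      omega
    · exact h
  refine ⟨p, hp, hB, IntermediateField.fixedField H, inferInstance, inferInstance,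
    (IsAbelianGalois.tower_bot ℚ (IntermediateField.fixedField H) L).toIsGalois,
    ?_, ⟨fun v => ?_⟩, ?_⟩
  · have h1 := finrank_mul_finrank ℚ (IntermediateField.fixedField H) L
    rw [IntermediateField.finrank_fixedField_eq_card, hH,
      IsCyclotomicExtension.finrank L (cyclotomic.irreducible_rat hp.pos), Nat.totient_prime hp,
      ht] at h1
    exact Nat.eq_of_mul_eq_mul_right (m := 2 * t) (by omega) (by rw [h1]; ring)
  · rw [InfinitePlace.isReal_iff, ComplexEmbedding.isReal_iff]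
    ext x
    set ψ := ComplexEmbedding.lift L v.embedding
    obtain ⟨c, hc⟩ := ComplexEmbedding.exists_comp_symm_eq_of_comp_eq (k := ℚ) ψ
      (ComplexEmbedding.conjugate ψ) (Subsingleton.elim _ _)
    have h1 : ComplexEmbedding.IsConj ψ c.symm := hc.symm
    have h2 : c.symm * c.symm = 1 := AlgEquiv.ext (ComplexEmbedding.isConj_apply_apply h1)
    have h3 : c.symm ∈ H := by
      refine ⟨e c.symm, ?_, e.symm_apply_apply _⟩
      have : e c.symm ^ (2 * t) = 1 := by rw [pow_mul, sq, ← map_mul, h2, map_one, one_pow]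
      exact this
    have h4 : c.symm (x : L) = x := x.2 ⟨_, h3⟩
    have h5 := h1.eq (x : L)
    rw [h4] at h5
    rw [RingHom.star_apply, ← ComplexEmbedding.lift_algebraMap_apply L v.embedding]
    exact h5.symm
  · refine (discr_dvd_discr (IntermediateField.fixedField H) L).trans ?_
    rw [IsCyclotomicExtension.Rat.discr_prime p L]
    exact ((isUnit_neg_one.pow _).mul_left_dvd).2 dvd_rfl

theorem exists_comp (F E : Type) [Field F] [NumberField F] [Field E] [NumberField E]
    [IsGalois ℚ F] [IsTotallyReal F] [IsTotallyReal E] (h : IsCoprime (discr F) (discr E)) :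
    ∃ (K : Type) (_ : Field K) (_ : NumberField K), finrank ℚ K = finrank ℚ F * finrank ℚ E ∧
      IsTotallyReal K ∧ Nonempty (F →+* K) ∧ discr E ∣ discr K := by
  obtain ⟨Ω, _, _, _, _⟩ : ∃ (Ω : Type) (_ : Field Ω) (_ : CharZero Ω),
      IsAlgClosed Ω ∧ Algebra.IsAlgebraic ℚ Ω :=
    ⟨AlgebraicClosure ℚ, inferInstance, inferInstance, inferInstance,
      AlgebraicClosure.isAlgebraic ℚ⟩
  let f : F →ₐ[ℚ] Ω := IsAlgClosed.lift
  let g : E →ₐ[ℚ] Ω := IsAlgClosed.lift
  let a : F ≃ₐ[ℚ] f.fieldRange := AlgEquiv.ofInjectiveField f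
  let b : E ≃ₐ[ℚ] g.fieldRange := AlgEquiv.ofInjectiveField g
  have := a.toLinearEquiv.finiteDimensional
  have := b.toLinearEquiv.finiteDimensional
  have hG : IsGalois ℚ f.fieldRange := IsGalois.of_algEquiv a
  have : NumberField f.fieldRange := {}
  have : NumberField g.fieldRange := {}
  have : NumberField ↥(f.fieldRange ⊔ g.fieldRange) := {}
  have hd : f.fieldRange.LinearDisjoint g.fieldRange := by
    refine @IntermediateField.LinearDisjoint.of_inf_eq_bot _ _ _ _ _ _ _ hG ‹_› ‹_› ?_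
    have : FiniteDimensional ℚ ↥(f.fieldRange ⊓ g.fieldRange) :=
      .of_injective (IntermediateField.inclusion inf_le_left).toLinearMap
        (IntermediateField.inclusion_injective inf_le_left)
    have : NumberField ↥(f.fieldRange ⊓ g.fieldRange) := {}
    by_contra hne
    have h1 : 1 < finrank ℚ ↥(f.fieldRange ⊓ g.fieldRange) := by
      refine Nat.one_lt_iff_ne_zero_and_ne_one.mpr ⟨finrank_pos.ne', ?_⟩
      rwa [ne_eq, IntermediateField.finrank_eq_one_iff]
    rw [discr_eq_discr_of_algEquiv _ a, discr_eq_discr_of_algEquiv _ b] at h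
    let _ := (IntermediateField.inclusion
      (inf_le_left : f.fieldRange ⊓ g.fieldRange ≤ _)).toRingHom.toAlgebra
    let _ := (IntermediateField.inclusion
      (inf_le_right : f.fieldRange ⊓ g.fieldRange ≤ _)).toRingHom.toAlgebra
    have h2 := h.isUnit_of_dvd' (discr_dvd_discr ↥(f.fieldRange ⊓ g.fieldRange) _)
      (discr_dvd_discr _ _)
    have h3 := Int.isUnit_iff_abs_eq.1 h2
    linarith [abs_discr_gt_two h1]
  refine ⟨↥(f.fieldRange ⊔ g.fieldRange), inferInstance, inferInstance, ?_, ?_,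
    ⟨(IntermediateField.inclusion le_sup_left).toRingHom.comp a.toRingEquiv.toRingHom⟩, ?_⟩
  · rw [hd.finrank_sup, a.toLinearEquiv.finrank_eq, b.toLinearEquiv.finrank_eq]
  · have h1 : IsTotallyReal f.fieldRange.toSubfield := IsTotallyReal.ofRingEquiv a.toRingEquiv
    have h2 : IsTotallyReal g.fieldRange.toSubfield := IsTotallyReal.ofRingEquiv b.toRingEquiv
    have h3 : IsTotallyReal (f.fieldRange ⊔ g.fieldRange).toSubfield := by
      rw [IntermediateField.sup_toSubfield]
      exact isTotallyReal_sup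
    exact h3
  · let _ := (IntermediateField.inclusion
      (le_sup_right : g.fieldRange ≤ f.fieldRange ⊔ g.fieldRange)).toRingHom.toAlgebra
    rw [discr_eq_discr_of_algEquiv _ b]
    exact discr_dvd_discr _ _

theorem exists_emb (K : Type) [Field K] [NumberField K] [IsTotallyReal K] {n : ℕ}
    (h : finrank ℚ K = n) : Nonempty (Fin n ≃ (K →+* ℝ)) := by
  have hb : Function.Bijective fun φ : K →+* ℝ => Complex.ofRealHom.comp φ := by
    refine ⟨fun φ ψ e => RingHom.ext fun x => ?_, fun φ =>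
      ⟨(IsTotallyReal.complexEmbedding_isReal φ).embedding, RingHom.ext fun x => ?_⟩⟩
    · exact Complex.ofReal_injective (RingHom.congr_fun e x)
    · exact ComplexEmbedding.IsReal.coe_embedding_apply _ x
  exact ⟨(Fintype.equivFinOfCardEq ((Embeddings.card K ℂ).trans h)).symm.trans
    (Equiv.ofBijective _ hb).symm⟩

theorem exists_max (K : Type) [Field K] [NumberField K] {n : ℕ} (h : finrank ℚ K = n) :
    ∃ o : Order K n, (∀ x, x ∈ o.O ↔ IsIntegral ℤ x) ∧ o.disc = discr K := by
  let e : Free.ChooseBasisIndex ℤ (𝓞 K) ≃ Fin n := Fintype.equivFinOfCardEq (by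
    rw [← finrank_eq_card_basis (integralBasis K), h])
  refine ⟨⟨(integralClosure ℤ K).toSubring, (integralBasis K).reindex e, ?_⟩, fun x => Iff.rfl, ?_⟩
  · ext x
    rw [Basis.range_reindex, SetLike.mem_coe, SetLike.mem_coe, mem_span_integralBasis]
    exact ⟨fun hx => ⟨⟨x, hx⟩, rfl⟩, fun ⟨y, hy⟩ => hy ▸ y.2⟩
  · rw [Order.disc, Basis.coe_reindex, Algebra.discr_reindex, coe_discr]

theorem exists_theta (F : Type) [Field F] [NumberField F] (h : 1 < finrank ℚ F) :
    ∃ θ : F, IsIntegral ℤ θ ∧ ∀ z : ℤ, θ ≠ z := by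
  by_contra hn
  push Not at hn
  have h1 : (⊥ : Subalgebra ℚ F) = ⊤ := by
    refine top_unique fun x _ => ?_
    have h2 : x ∈ Submodule.span ℚ (Set.range (integralBasis F)) := by simp
    have h3 : Submodule.span ℚ (Set.range (integralBasis F)) ≤
        Subalgebra.toSubmodule (⊥ : Subalgebra ℚ F) := by
      refine Submodule.span_le.2 ?_
      rintro _ ⟨i, rfl⟩
      obtain ⟨z, hz⟩ := hn (integralBasis F i) (by
        rw [integralBasis_apply]
        exact RingOfIntegers.isIntegral_coe _)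
      rw [hz]
      exact intCast_mem (⊥ : Subalgebra ℚ F) z
    exact h3 h2
  rw [Subalgebra.bot_eq_top_iff_finrank_eq_one] at h1
  omega

theorem exists_fields {d k : ℕ} (hd : 2 ≤ d) (hk : 2 ≤ k) : ∃ C : ℝ, ∀ B : ℕ,
    ∃ (K : Type) (_ : Field K) (_ : NumberField K), finrank ℚ K = d * k ∧ IsTotallyReal K ∧
      (B : ℤ) ≤ |discr K| ∧ ∃ θ : K, IsIntegral ℤ θ ∧ (∀ z : ℤ, θ ≠ z) ∧
        ∀ φ : K →+* ℝ, |φ θ| ≤ C := by
  obtain ⟨q, hq, -, F, _, _, f1, f2, f3, f4⟩ := exists_cyc (k := d) (by omega) 0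
  obtain ⟨θ, t1, t2⟩ := exists_theta F (by omega)
  refine ⟨∑ φ : F →+* ℂ, ‖φ θ‖, fun B => ?_⟩
  obtain ⟨p, hp, hB, E, _, _, -, e2, e3, e4⟩ := exists_cyc (k := k) (by omega) (max B q)
  have hpq : IsCoprime (q : ℤ) p := Nat.isCoprime_iff_coprime.2
    ((Nat.coprime_primes hq hp).2 (lt_of_le_of_lt (le_max_right _ _) hB).ne)
  obtain ⟨K, _, _, k1, k2, ⟨ι⟩, k4⟩ := exists_comp F E
    ((hpq.pow.of_isCoprime_of_dvd_left f4).of_isCoprime_of_dvd_right e4)
  refine ⟨K, inferInstance, inferInstance, by rw [k1, f2, e2], k2, ?_, ι θ,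
    t1.map ι.toIntAlgHom, fun z hz => t2 z (ι.injective (by simpa using hz)), fun φ => ?_⟩
  · have h1 : (p : ℤ) ∣ discr E := by
      by_contra hn
      have h2 : IsCoprime (discr E) ((p : ℤ) ^ (p - 2)) :=
        (((Nat.prime_iff_prime_int.1 hp).coprime_iff_not_dvd.2 hn).symm).pow_right
      have h3 := Int.isUnit_iff_abs_eq.1 (h2.isUnit_of_dvd' dvd_rfl e4)
      linarith [abs_discr_gt_two (K := E) (by omega)]
    have h4 := Int.le_of_dvd (abs_pos.2 (discr_ne_zero K)) ((dvd_abs _ _).2 (h1.trans k4))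
    have h5 : B ≤ p := (le_max_left _ _).trans hB.le
    omega
  · have := Finset.single_le_sum (f := fun φ : F →+* ℂ => ‖φ θ‖) (fun _ _ => norm_nonneg _)
      (Finset.mem_univ (Complex.ofRealHom.comp (φ.comp ι)))
    simpa using this

end Vale.Agent.P007
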