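import Vale.Agent.P007.Avoid
import Vale.Agent.P007.Field

/-! Packets of orders with a bounded irrational element avoid a fixed open set. -/

namespace Vale.Agent.P007

open Matrix MeasureTheory Topology Filter
open scoped CompactlySupported nonZeroDivisors

variable {K : Type} [Field K] [NumberField K] {n : ℕ}

theorem packet_stable {o : Order K n} {σ : Fin n ≃ (K →+* ℝ)} {g : G n} (hg : mk g ∈ packet o σ)
    {θ : K} (hθ : θ ∈ o.O) : ∃ M : Matrix (Fin n) (Fin n) ℤ,
      M.map (Int.castRingHom ℝ) * g = g * diagonal fun j => σ j θ := by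
  obtain ⟨I, -, -, c, w, u, -, -, -, h⟩ := hg
  have key : ∀ i, ∃ k : Fin n → ℤ, (fun j => g i j * σ j θ) = (fun i => (k i : ℝ)) ᵥ* g.1 := by
    intro i
    have h1 : g.1 i ∈ lat (mk g) := mem_lat.2 ⟨Pi.single i 1, by
      funext j
      simp [vecMul, dotProduct, Pi.single_apply]⟩
    rw [h] at h1
    obtain ⟨α, hα, e⟩ := h1
    refine mem_lat.1 ?_
    rw [h]
    refine ⟨θ * α, I.coeToSubmodule.smul_mem (⟨θ, hθ⟩ : o.O) hα, ?_⟩
    funext j
    rw [show g i j = _ from congrFun e j, map_mul]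
    ring
  choose M hM using key
  refine ⟨Matrix.of M, ?_⟩
  ext i j
  rw [mul_diagonal, show g.1 i j * σ j θ = _ from congrFun (hM i) j]
  rfl

theorem exists_test (n : ℕ) [NeZero n] (C : ℝ) : ∃ f : C_c(X n, ℝ),
    (∀ m, IsHaarProb m → 0 < ∫ x, f x ∂m) ∧
    ∀ (K : Type) [Field K] [NumberField K] (o : Order K n) (σ : Fin n ≃ (K →+* ℝ)),
      (∃ θ ∈ o.O, (∀ z : ℤ, θ ≠ z) ∧ ∀ j, |σ j θ| ≤ C) → ∀ x ∈ packet o σ, f x = 0 := by
  obtain ⟨U, hU, ⟨g, hg⟩, h⟩ := exists_avoid n C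
  have ho : IsOpen (mk '' U) := mk_open.isOpenMap U hU
  obtain ⟨f, f1, f2, f3, f4⟩ := exists_continuous_one_zero_of_isCompact
    (isCompact_singleton (x := mk g)) ho.isClosed_compl
    (Set.disjoint_singleton_left.2 fun hn => hn ⟨g, hg, rfl⟩)
  refine ⟨⟨f, f3⟩, fun m hm => ?_, ?_⟩
  · have := hm.1
    refine (integral_pos_iff_support_of_nonneg (fun x => (f4 x).1)
      (f.continuous.integrable_of_hasCompactSupport f3)).2 (pos_iff_ne_zero.2 ?_)
    refine haar_pos hm f.continuous.isOpen_support ⟨mk g, ?_⟩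
    have : f (mk g) = 1 := f1 rfl
    simp [this]
  · rintro K _ _ o σ ⟨θ, hθ, hz, hC⟩ x hx
    refine f2 ?_
    rintro ⟨g', hg', rfl⟩
    obtain ⟨M, hM⟩ := packet_stable hx hθ
    exact hz (M 0 0) ((σ 0).injective (by rw [h g' hg' M _ hC hM 0, map_intCast]))

theorem tor_cont {m : ℕ} : Continuous (tor : (Fin m → ℝ) → G (m + 1)) := by
  refine Continuous.subtype_mk (Continuous.matrix_diagonal (continuous_pi fun j => ?_)) _
  refine Real.continuous_exp.comp ?_
  refine Fin.lastCases ?_ (fun i => ?_) j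
  · simp only [Fin.snoc_last]
    fun_prop
  · simp only [Fin.snoc_castSucc]
    fun_prop

theorem IsPacketMeasure.integral_zero {m : ℕ} {o : Order K (m + 1)}
    {σ : Fin (m + 1) ≃ (K →+* ℝ)} {μ : Measure (X (m + 1))} (h : IsPacketMeasure o σ μ)
    {f : X (m + 1) → ℝ} (hf : Continuous f) (h0 : ∀ x ∈ packet o σ, f x = 0) :
    ∫ x, f x ∂μ = 0 := by
  obtain ⟨R, D, h1, -, -, rfl⟩ := h
  refine integral_eq_zero_of_ae (Measure.ae_smul_measure ?_ _)
  refine ae_finsetSum_measure_iff.2 fun x hx => ?_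
  have hc : Continuous fun u => act (tor u) x := by
    obtain ⟨g, rfl⟩ := mk_open.surjective x
    exact mk_open.continuous.comp (continuous_const.mul tor_cont)
  refine (ae_map_iff hc.measurable.aemeasurable
    (isClosed_eq hf continuous_const).measurableSet).2 (Eventually.of_forall fun u => h0 _ ?_)
  rw [h1]
  exact Set.mem_iUnion₂.2 ⟨x, hx, u, rfl⟩

theorem packet_nonempty [NeZero n] (o : Order K n) (σ : Fin n ≃ (K →+* ℝ)) :
    (packet o σ).Nonempty := by
  set A : Matrix (Fin n) (Fin n) ℝ := Matrix.of fun i j => σ j (o.b i) with hA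
  have hdet : A.det ≠ 0 := by
    intro h0
    obtain ⟨v, hv, h1⟩ := Matrix.exists_mulVec_eq_zero_iff.2 h0
    have hl : LinearIndependent ℝ fun j => (σ j : K → ℝ) :=
      (linearIndependent_monoidHom K ℝ).comp (fun j => (σ j).toMonoidHom) fun i j e =>
        σ.injective (RingHom.coe_monoidHom_injective e)
    refine hv (funext (Fintype.linearIndependent_iff.1 hl v ?_))
    funext x
    rw [← o.b.sum_repr x]
    have h2 : ∀ i, ∑ j, σ j (o.b i) * v j = 0 := fun i => congrFun h1 i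
    simp only [Finset.sum_apply, Pi.smul_apply, map_sum, map_rat_smul, smul_eq_mul,
      Finset.mul_sum, Pi.zero_apply, mul_smul_comm]
    rw [Finset.sum_comm]
    simp only [← Finset.smul_sum, mul_comm (v _), h2, smul_zero, Finset.sum_const_zero]
  set c : ℝ := |A.det|⁻¹ ^ ((n : ℝ)⁻¹) with hc
  have hc0 : 0 < c := Real.rpow_pos_of_pos (inv_pos.2 (abs_pos.2 hdet)) _
  have hcn : c ^ n = |A.det|⁻¹ := Real.rpow_inv_natCast_pow (by positivity) (NeZero.ne n)
  set w : Fin n → ℝ := Function.update 1 0 (SignType.sign A.det) with hw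
  have hg : (c • (A * diagonal w)).det = 1 := by
    rw [det_smul, det_mul, det_diagonal, hw, Finset.prod_update_of_mem (Finset.mem_univ _),
      Fintype.card_fin, hcn]
    simp only [Pi.one_apply, Finset.prod_const_one, mul_one, self_mul_sign]
    exact inv_mul_cancel₀ (abs_pos.2 hdet).ne'
  refine ⟨mk ⟨_, hg⟩, 1, ?_, ⟨1, mul_one _⟩, c, w, 0, hc0, fun j => ?_, by simp, ?_⟩
  · ext α
    simp only [Set.mem_ofPred_eq, FractionalIdeal.mem_one_iff, SetLike.mem_coe]
    constructor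
    · intro h
      obtain ⟨y, hy⟩ := h 1 ⟨1, rfl⟩
      rw [mul_one] at hy
      exact hy ▸ y.2
    · rintro h _ ⟨y, rfl⟩
      exact ⟨⟨α, h⟩ * y, rfl⟩
  · by_cases hj : j = 0
    · subst hj
      rcases hdet.lt_or_gt with h | h <;> simp [hw, h]
    · simp [hw, hj]
  · have e : ∀ k : Fin n → ℤ, (fun i => (k i : ℝ)) ᵥ* (c • (A * diagonal w)) =
        fun j => c * σ j (∑ i, k i • o.b i) * w j * Real.exp ((0 : Fin n → ℝ) j) := fun k => by
      funext j
      simp only [vecMul, dotProduct, Matrix.smul_apply, mul_diagonal, hA, of_apply, smul_eq_mul, map_sum,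
        zsmul_eq_mul, map_mul, map_intCast, Pi.zero_apply, Real.exp_zero, mul_one, Finset.mul_sum,
        Finset.sum_mul]
      exact Finset.sum_congr rfl fun i _ => by ring
    have hO : ∀ α, α ∈ (1 : FractionalIdeal o.O⁰ K) ↔ ∃ k : Fin n → ℤ, ∑ i, k i • o.b i = α := by
      intro α
      rw [FractionalIdeal.mem_one_iff, ← Submodule.mem_span_range_iff_exists_fun,
        ← SetLike.mem_coe, ← o.span_eq]
      exact ⟨fun ⟨y, hy⟩ => hy ▸ y.2, fun h => ⟨⟨α, h⟩, rfl⟩⟩
    ext v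
    refine (mem_lat (g := ⟨_, hg⟩)).trans ?_
    simp only [e, Set.mem_ofPred_eq, hO]
    exact ⟨fun ⟨k, hk⟩ => ⟨_, ⟨k, rfl⟩, hk⟩, fun ⟨_, ⟨k, rfl⟩, hk⟩ => ⟨k, hk⟩⟩

end Vale.Agent.P007
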